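import Vale.Agent.P067.Main

namespace Vale.Agent.Results.P067.A_full

open Vale.Agent.P067

theorem result : ∀ d : ℕ, 1 ≤ d → ∃ (D : ℕ) (ε : ℝ), 0 < ε ∧
    ∃ (V : ℕ → Type) (_ : ∀ m, Fintype (V m)) (_ : ∀ m, DecidableEq (V m))
      (X : ∀ m, PreAbstractSimplicialComplex (V m)),
      Filter.Tendsto (fun m => (lvl (X m) 0).card) Filter.atTop Filter.atTop ∧
      ∀ m, IsPure (X m) d ∧ IsConn (X m) ∧ degree (X m) d ≤ D ∧ IsCobExp (X m) d ε :=
  main

end Vale.Agent.Results.P067.A_full
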